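/-
S0066 (row 47), package R2 (owner: helper33): `rigid_thr`, `rigid_pay` — statements verbatim from
`Crest.Agent.Helper5.S0066.Spec`.  Blueprint: `notes/s0066_blueprint.md`, section 2 (R2).

Given that the 59 crown rows / columns of a copy sit on the crown lines with the same index,
* the four threshold rows / columns sit on threshold lines `thr g θ` of ONE group `g`;
* the three payload roles sit on payload lines or on `Z`.
Pure case analysis on the constructors of `Line` against the crown columns / rows.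
-/
import Crest.Agent.Helper5.S0066.Defs

set_option autoImplicit false

namespace Crest.Agent.Helper33.S0066

open Crest.Agent.Helper5.S0066 Line

variable {h : ℕ}

/-! ### Values of the pattern on the blocks used here -/

theorem Hpat_role_crown (k : Fin 3) (a : Fin 59) :
    Hpat ⟨k.val, by omega⟩ ⟨3 + a.val, by omega⟩ = false := by
  have h1 : k.val < 3 := k.isLt
  have h3 : ¬ (3 + a.val < 3) := by omega
  have h4 : 3 + a.val < 62 := by omega
  simp only [Hpat, h1, h3, h4, if_true, if_false]

theorem Hpat_crown_role (a : Fin 59) (k : Fin 3) :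
    Hpat ⟨3 + a.val, by omega⟩ ⟨k.val, by omega⟩ = false := by
  have h1 : k.val < 3 := k.isLt
  have h3 : ¬ (3 + a.val < 3) := by omega
  have h4 : 3 + a.val < 62 := by omega
  simp only [Hpat, h1, h3, h4, if_true, if_false]

theorem Hpat_thr_crown (θ : Fin 4) (a : Fin 59) :
    Hpat ⟨62 + θ.val, by omega⟩ ⟨3 + a.val, by omega⟩ = decide (a.val = θ.val) := by
  have h1 : ¬ (62 + θ.val < 3) := by omega
  have h2 : ¬ (62 + θ.val < 62) := by omega
  have h3 : ¬ (3 + a.val < 3) := by omega
  have h4 : 3 + a.val < 62 := by omega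
  simp only [Hpat, h1, h2, h3, h4, if_true, if_false]
  congr 1
  simp

theorem Hpat_crown_thr (a : Fin 59) (θ : Fin 4) :
    Hpat ⟨3 + a.val, by omega⟩ ⟨62 + θ.val, by omega⟩ = decide (a.val = θ.val) := by
  have h1 : ¬ (62 + θ.val < 3) := by omega
  have h2 : ¬ (62 + θ.val < 62) := by omega
  have h3 : ¬ (3 + a.val < 3) := by omega
  have h4 : 3 + a.val < 62 := by omega
  simp only [Hpat, h1, h2, h3, h4, if_true, if_false]
  congr 1
  simp

theorem Hpat_thr_thr (θ θ' : Fin 4) :
    Hpat ⟨62 + θ.val, by omega⟩ ⟨62 + θ'.val, by omega⟩ = true := by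
  have h1 : ¬ (62 + θ.val < 3) := by omega
  have h2 : ¬ (62 + θ.val < 62) := by omega
  have h3 : ¬ (62 + θ'.val < 3) := by omega
  have h4 : ¬ (62 + θ'.val < 62) := by omega
  simp only [Hpat, h1, h2, h3, h4, if_false]

theorem Hpat_crown_crown (a b : Fin 59) :
    Hpat ⟨3 + a.val, by omega⟩ ⟨3 + b.val, by omega⟩ = decide (a ≠ b) := by
  have h1 : ¬ (3 + a.val < 3) := by omega
  have h2 : 3 + a.val < 62 := by omega
  have h3 : ¬ (3 + b.val < 3) := by omega
  have h4 : 3 + b.val < 62 := by omega
  simp only [Hpat, h1, h2, h3, h4, if_true, if_false]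
  congr 1
  simp [Fin.ext_iff]

/-! ### Lines against the crown columns / rows -/

/-- There is a crown index different from a given one and not below `4`. -/
theorem exists_crown_ne (b : Fin 59) : ∃ a : Fin 59, b ≠ a ∧ 4 ≤ a.val := by
  by_cases hb : b.val = 4
  · exact ⟨⟨5, by omega⟩, fun hba => by rw [hba] at hb; simp at hb, by simp⟩
  · exact ⟨⟨4, by omega⟩, fun hba => hb (by rw [hba]), by simp⟩

/-- A row adjacent to exactly the crown column type `θ` is a line `thr g θ i`. -/
theorem row_thr_of_crown {l : Line h} {θ : Fin 4} (I : Fin 59 → Fin (2 ^ h))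
    (hl : ∀ a : Fin 59, M l (crown a (I a)) = decide (a.val = θ.val)) :
    ∃ g i, l = thr g θ i := by
  have hθ := hl ⟨θ.val, by omega⟩
  cases l with
  | Y i => simp [M] at hθ
  | Z i => simp [M] at hθ
  | leaf x => simp [M] at hθ
  | core j k y => simp [M] at hθ
  | crown b i =>
    exfalso
    obtain ⟨a, hba, ha4⟩ := exists_crown_ne b
    have ha := hl a
    have haθ : ¬ (a.val = θ.val) := by omega
    simp [M, hba, haθ] at ha
  | thr g θ' i =>
    simp only [M, decide_eq_decide] at hθ
    have hθθ : θ' = θ := Fin.ext (hθ.mpr trivial).symm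
    exact ⟨g, i, by rw [hθθ]⟩

/-- A column adjacent to exactly the crown row type `θ` is a line `thr g θ i`. -/
theorem col_thr_of_crown {l : Line h} {θ : Fin 4} (I : Fin 59 → Fin (2 ^ h))
    (hl : ∀ a : Fin 59, M (crown a (I a)) l = decide (a.val = θ.val)) :
    ∃ g i, l = thr g θ i := by
  have hθ := hl ⟨θ.val, by omega⟩
  cases l with
  | Y i => simp [M] at hθ
  | Z i => simp [M] at hθ
  | leaf x => simp [M] at hθ
  | core j k y => simp [M] at hθ
  | crown b i =>
    exfalso
    obtain ⟨a, hba, ha4⟩ := exists_crown_ne b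
    have ha := hl a
    have haθ : ¬ (a.val = θ.val) := by omega
    have hab : a ≠ b := fun hab => hba hab.symm
    simp [M, hab, haθ] at ha
  | thr g θ' i =>
    simp only [M, decide_eq_decide] at hθ
    have hθθ : θ' = θ := Fin.ext (hθ.mpr trivial).symm
    exact ⟨g, i, by rw [hθθ]⟩

/-- A row adjacent to no crown column is a payload line or a `Z` line. -/
theorem row_pay_of_crown {l : Line h} (I : Fin 59 → Fin (2 ^ h))
    (hl : ∀ a : Fin 59, M l (crown a (I a)) = false) :
    l.isPay = true ∨ ∃ i, l = Z i := by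
  cases l with
  | Y i => exact Or.inl rfl
  | Z i => exact Or.inr ⟨i, rfl⟩
  | leaf x => exact Or.inl rfl
  | core j k y => exact Or.inl rfl
  | crown b i =>
    exfalso
    obtain ⟨a, hba, -⟩ := exists_crown_ne b
    have ha := hl a
    simp [M, hba] at ha
  | thr g θ i =>
    exfalso
    have ha := hl ⟨θ.val, by omega⟩
    simp [M] at ha

/-- A column adjacent to no crown row is a payload line or a `Z` line. -/
theorem col_pay_of_crown {l : Line h} (I : Fin 59 → Fin (2 ^ h))
    (hl : ∀ a : Fin 59, M (crown a (I a)) l = false) :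
    l.isPay = true ∨ ∃ i, l = Z i := by
  cases l with
  | Y i => exact Or.inl rfl
  | Z i => exact Or.inr ⟨i, rfl⟩
  | leaf x => exact Or.inl rfl
  | core j k y => exact Or.inl rfl
  | crown b i =>
    exfalso
    obtain ⟨a, hba, -⟩ := exists_crown_ne b
    have ha := hl a
    have hab : a ≠ b := fun hab => hba hab.symm
    simp [M, hab] at ha
  | thr g θ i =>
    exfalso
    have ha := hl ⟨θ.val, by omega⟩
    simp [M] at ha

/-! ### The two package statements -/

/-- **R2.** The threshold rows / columns of the pattern sit on the threshold lines of ONE group. -/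
theorem rigid_thr (r c : Fin 66 → Line h) (hM : ∀ i j, M (r i) (c j) = Hpat i j)
    (hcr : ∀ a : Fin 59, (∃ i, r ⟨3 + a.val, by omega⟩ = crown a i) ∧
      (∃ i, c ⟨3 + a.val, by omega⟩ = crown a i)) :
    ∃ g : Grp h, (∀ θ : Fin 4, ∃ i, r ⟨62 + θ.val, by omega⟩ = thr g θ i) ∧
      (∀ θ : Fin 4, ∃ i, c ⟨62 + θ.val, by omega⟩ = thr g θ i) := by
  choose Ir hIr using fun a => (hcr a).1
  choose Ic hIc using fun a => (hcr a).2
  -- threshold rows
  have hrow : ∀ θ : Fin 4, ∃ g i, r ⟨62 + θ.val, by omega⟩ = thr g θ i := by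
    intro θ
    refine row_thr_of_crown Ic (fun a => ?_)
    rw [← hIc a, hM, Hpat_thr_crown]
  -- threshold columns
  have hcol : ∀ θ : Fin 4, ∃ g i, c ⟨62 + θ.val, by omega⟩ = thr g θ i := by
    intro θ
    refine col_thr_of_crown Ir (fun a => ?_)
    rw [← hIr a, hM, Hpat_crown_thr]
  choose gr ir hgr using hrow
  choose gc ic hgc using hcol
  -- threshold × threshold = 1 forces one common group
  have hgg : ∀ θ θ' : Fin 4, gr θ = gc θ' := by
    intro θ θ'
    have hcell := hM ⟨62 + θ.val, by omega⟩ ⟨62 + θ'.val, by omega⟩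
    rw [hgr θ, hgc θ', Hpat_thr_thr] at hcell
    simpa [M] using hcell
  refine ⟨gr 0, fun θ => ⟨ir θ, ?_⟩, fun θ => ⟨ic θ, ?_⟩⟩
  · rw [hgr θ, hgg θ 0, hgg 0 0]
  · rw [hgc θ, ← hgg 0 θ]

/-- **R2.** The three payload roles sit on payload lines or on `Z`. -/
theorem rigid_pay (r c : Fin 66 → Line h) (hM : ∀ i j, M (r i) (c j) = Hpat i j)
    (hcr : ∀ a : Fin 59, (∃ i, r ⟨3 + a.val, by omega⟩ = crown a i) ∧
      (∃ i, c ⟨3 + a.val, by omega⟩ = crown a i)) (k : Fin 3) :
    ((r ⟨k.val, by omega⟩).isPay = true ∨ ∃ i, r ⟨k.val, by omega⟩ = Z i) ∧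
    ((c ⟨k.val, by omega⟩).isPay = true ∨ ∃ i, c ⟨k.val, by omega⟩ = Z i) := by
  choose Ir hIr using fun a => (hcr a).1
  choose Ic hIc using fun a => (hcr a).2
  constructor
  · refine row_pay_of_crown Ic (fun a => ?_)
    rw [← hIc a, hM, Hpat_role_crown]
  · refine col_pay_of_crown Ir (fun a => ?_)
    rw [← hIr a, hM, Hpat_crown_role]

end Crest.Agent.Helper33.S0066
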