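/-
S0066 (row 47), package R1c (owner: helper33): the core of `rigid_crown`, with the crown lemma
R1b (`crown_lines`, owner helper76) taken as an explicit HYPOTHESIS, so that this module depends
only on `Crest.Agent.Helper5.S0066.Defs` and `Crest.Agent.Helper33.S0066.R2`.
The Spec-verbatim statement is derived in `R1c.lean`.  Blueprint: `notes/s0066_blueprint.md`, R1c.
-/
import Crest.Agent.Helper33.S0066.R2

set_option autoImplicit false

namespace Crest.Agent.Helper33.S0066

open Crest.Agent.Helper5.S0066 Line

variable {h : ℕ}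

/-- Weak monotonicity between crown lines gives weak monotonicity of the crown index
(own copy of the layout fact, so that this module does not wait for package L-a). -/
theorem crown_le_crown_aux {a b : Fin 59} {i i' : Fin (2 ^ h)}
    (hle : (crown a i : Line h) ≤ crown b i') : a ≤ b := by
  rw [Line.le_iff] at hle
  simp only [k1, k2, lt_self_iff_false, true_and, false_or] at hle
  rcases hle with hlt | ⟨heq, -⟩
  · exact Fin.le_of_lt (Fin.lt_def.mpr hlt)
  · exact le_of_eq (Fin.ext heq)

/-- A strictly monotone self-map of `Fin n` is the identity. -/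
theorem strictMono_fin_eq_id {n : ℕ} {f : Fin n → Fin n} (hf : StrictMono f) (a : Fin n) :
    f a = a :=
  le_antisymm (hf.le_id a) (hf.id_le a)

/-- **R1c (core).** In a (weakly monotone) copy, the crown rows / columns of the pattern sit on
the crown lines with the same index — given the crown lemma R1b as a hypothesis. -/
theorem rigid_crown_of
    (hcl : ∀ R C : Fin 59 → Line h, (∀ a b, M (R a) (C b) = decide (a ≠ b)) → ∀ a : Fin 59,
      (∃ ρ i, R a = crown ρ i) ∧ (∃ γ i, C a = crown γ i))
    (r c : Fin 66 → Line h) (hr : Monotone r) (hc : Monotone c)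
    (hM : ∀ i j, M (r i) (c j) = Hpat i j) (a : Fin 59) :
    (∃ i, r ⟨3 + a.val, by omega⟩ = crown a i) ∧ (∃ i, c ⟨3 + a.val, by omega⟩ = crown a i) := by
  -- the 59-crown of the copy
  have hRC : ∀ a b : Fin 59,
      M (r ⟨3 + a.val, by omega⟩) (c ⟨3 + b.val, by omega⟩) = decide (a ≠ b) := by
    intro a b
    rw [hM, Hpat_crown_crown]
  have key := hcl (fun a => r ⟨3 + a.val, by omega⟩) (fun a => c ⟨3 + a.val, by omega⟩) hRC
  choose ρ iρ hρ using fun a => (key a).1
  choose γ iγ hγ using fun a => (key a).2
  -- `ρ a = γ b ↔ a = b`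
  have hργ : ∀ a b : Fin 59, ρ a = γ b ↔ a = b := by
    intro a b
    have hcell := hRC a b
    rw [hρ a, hγ b] at hcell
    simp only [M, decide_eq_decide] at hcell
    exact not_iff_not.mp hcell
  have hρeqγ : ∀ a, ρ a = γ a := fun a => (hργ a a).mpr rfl
  -- injectivity
  have hρinj : Function.Injective ρ := by
    intro a b hab
    exact (hργ a b).mp (hab.trans (hρeqγ b))
  have hγinj : Function.Injective γ := by
    intro a b hab
    exact (hργ a b).mp ((hρeqγ a).trans hab)
  -- weak monotonicity from the layout
  have hρmono : Monotone ρ := by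
    intro a b hab
    have hle : r ⟨3 + a.val, by omega⟩ ≤ r ⟨3 + b.val, by omega⟩ :=
      hr (Fin.mk_le_mk.mpr (by have := Fin.le_def.mp hab; omega))
    rw [hρ a, hρ b] at hle
    exact crown_le_crown_aux hle
  have hγmono : Monotone γ := by
    intro a b hab
    have hle : c ⟨3 + a.val, by omega⟩ ≤ c ⟨3 + b.val, by omega⟩ :=
      hc (Fin.mk_le_mk.mpr (by have := Fin.le_def.mp hab; omega))
    rw [hγ a, hγ b] at hle
    exact crown_le_crown_aux hle
  -- hence both are the identity
  have hρid : ρ a = a := strictMono_fin_eq_id (hρmono.strictMono_of_injective hρinj) a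
  have hγid : γ a = a := strictMono_fin_eq_id (hγmono.strictMono_of_injective hγinj) a
  exact ⟨⟨iρ a, by rw [hρ a, hρid]⟩, ⟨iγ a, by rw [hγ a, hγid]⟩⟩

end Crest.Agent.Helper33.S0066
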