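/-
S0066 (row 47), package R1c (owner: helper33): `rigid_crown`, statement verbatim from
`Crest.Agent.Helper5.S0066.Spec`, from the core `rigid_crown_of` (module `R1cCore`) and the crown
lemma R1b (`Crest.Agent.Helper76.S0066.crown_lines`).
-/
import Crest.Agent.Helper33.S0066.R1cCore
import Crest.Agent.Helper76.S0066.R1b

set_option autoImplicit false

namespace Crest.Agent.Helper33.S0066

open Crest.Agent.Helper5.S0066 Line

variable {h : ℕ}

/-- **R1c.** In a copy, the crown rows / columns of the pattern sit on the crown lines with the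
same index. -/
theorem rigid_crown (r c : Fin 66 → Line h) (hr : Monotone r) (hc : Monotone c)
    (hM : ∀ i j, M (r i) (c j) = Hpat i j) (a : Fin 59) :
    (∃ i, r ⟨3 + a.val, by omega⟩ = crown a i) ∧ (∃ i, c ⟨3 + a.val, by omega⟩ = crown a i) :=
  rigid_crown_of (fun R C hRC a => Crest.Agent.Helper76.S0066.crown_lines R C hRC a) r c hr hc hM a

end Crest.Agent.Helper33.S0066
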